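import Mathlib

/-!
# Weight facts for `v s = s * exp (-s)` (module M3b of the S0423 team proof)

Elementary facts about the weight `v s = s * exp (-s)` and the explicit level pair
`s₁ = x / (exp x - 1)`, `s₂ = s₁ + x` (for which `v s₁ = v s₂` and `s₁ ≤ 1 ≤ s₂`).
-/

namespace Crest.Agent.Helper8

open MeasureTheory Set Filter Topology

/-- `v` is monotone on `[0, 1]` (in fact up to `1`, for a nonnegative right endpoint). -/
theorem weight_mono {s t : ℝ} (hst : s ≤ t) (ht0 : 0 ≤ t) (ht1 : t ≤ 1) :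
    s * Real.exp (-s) ≤ t * Real.exp (-t) := by
  -- `s ≤ t * exp (-(t - s))`, from `1 - h ≤ exp (-h)`
  have h1 : 1 - (t - s) ≤ Real.exp (-(t - s)) := by
    have := Real.add_one_le_exp (-(t - s))
    linarith
  have h2 : s ≤ t * Real.exp (-(t - s)) := by
    have h3 : t * (1 - (t - s)) ≤ t * Real.exp (-(t - s)) :=
      mul_le_mul_of_nonneg_left h1 ht0
    nlinarith
  have h4 : Real.exp (-t) = Real.exp (-(t - s)) * Real.exp (-s) := by
    rw [← Real.exp_add]; congr 1; ring
  rw [h4, ← mul_assoc]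
  exact mul_le_mul_of_nonneg_right h2 (Real.exp_pos _).le

/-- `v` is antitone on `[1, ∞)`. -/
theorem weight_anti {s t : ℝ} (hs1 : 1 ≤ s) (hst : s ≤ t) :
    t * Real.exp (-t) ≤ s * Real.exp (-s) := by
  have h1 : 1 + (t - s) ≤ Real.exp (t - s) := by
    have := Real.add_one_le_exp (t - s)
    linarith
  have h2 : t ≤ s * Real.exp (t - s) := by
    have h3 : s * (1 + (t - s)) ≤ s * Real.exp (t - s) :=
      mul_le_mul_of_nonneg_left h1 (by linarith)
    nlinarith
  have h4 : Real.exp (-s) = Real.exp (t - s) * Real.exp (-t) := by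
    rw [← Real.exp_add]; congr 1; ring
  rw [h4, ← mul_assoc]
  exact mul_le_mul_of_nonneg_right h2 (Real.exp_pos _).le

theorem exp_sub_one_pos {x : ℝ} (hx : 0 < x) : 0 < Real.exp x - 1 := by
  have := Real.add_one_lt_exp hx.ne'
  linarith

theorem level_pos (x : ℝ) (hx : 0 < x) : 0 < x / (Real.exp x - 1) :=
  div_pos hx (exp_sub_one_pos hx)

/-- `s₁ ≤ 1`. -/
theorem level_le_one (x : ℝ) (hx : 0 < x) : x / (Real.exp x - 1) ≤ 1 := by
  rw [div_le_one (exp_sub_one_pos hx)]
  have := Real.add_one_le_exp x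
  linarith

/-- `1 ≤ s₂`. -/
theorem one_le_level_add (x : ℝ) (hx : 0 < x) : 1 ≤ x / (Real.exp x - 1) + x := by
  have hpos := exp_sub_one_pos hx
  have h1 : 1 - x ≤ Real.exp (-x) := by
    have := Real.add_one_le_exp (-x)
    linarith
  have h2 : Real.exp (-x) * Real.exp x = 1 := by
    rw [← Real.exp_add]; simp
  have h3 : (1 - x) * Real.exp x ≤ 1 := by
    calc (1 - x) * Real.exp x ≤ Real.exp (-x) * Real.exp x :=
          mul_le_mul_of_nonneg_right h1 (Real.exp_pos _).le
      _ = 1 := h2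
  rw [div_add' _ _ _ hpos.ne', le_div_iff₀ hpos]
  nlinarith

/-- `v s₂ = v s₁`. -/
theorem level_eq (x : ℝ) (hx : 0 < x) :
    (x / (Real.exp x - 1) + x) * Real.exp (-(x / (Real.exp x - 1) + x)) =
      x / (Real.exp x - 1) * Real.exp (-(x / (Real.exp x - 1))) := by
  have hpos := exp_sub_one_pos hx
  have h1 : x / (Real.exp x - 1) + x = x / (Real.exp x - 1) * Real.exp x := by
    field_simp
    ring
  have h2 : Real.exp (-(x / (Real.exp x - 1) + x)) =
      Real.exp (-(x / (Real.exp x - 1))) * Real.exp (-x) := by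
    rw [← Real.exp_add]; congr 1; ring
  have h3 : Real.exp x * Real.exp (-x) = 1 := by
    rw [← Real.exp_add]; simp
  calc (x / (Real.exp x - 1) + x) * Real.exp (-(x / (Real.exp x - 1) + x))
      = x / (Real.exp x - 1) * Real.exp x *
          (Real.exp (-(x / (Real.exp x - 1))) * Real.exp (-x)) := by rw [h2, ← h1]
    _ = x / (Real.exp x - 1) * Real.exp (-(x / (Real.exp x - 1))) *
          (Real.exp x * Real.exp (-x)) := by ring
    _ = _ := by rw [h3, mul_one]

theorem level_inside (x s : ℝ) (hx : 0 < x) (h1 : x / (Real.exp x - 1) ≤ s)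
    (h2 : s ≤ x / (Real.exp x - 1) + x) :
    x / (Real.exp x - 1) * Real.exp (-(x / (Real.exp x - 1))) ≤ s * Real.exp (-s) := by
  rcases le_total s 1 with hs | hs
  · exact weight_mono h1 ((level_pos x hx).le.trans h1) hs
  · rw [← level_eq x hx]
    exact weight_anti hs h2

set_option linter.unusedVariables false in
theorem level_left (x s : ℝ) (hx : 0 < x) (h0 : 0 ≤ s) (h1 : s ≤ x / (Real.exp x - 1)) :
    s * Real.exp (-s) ≤ x / (Real.exp x - 1) * Real.exp (-(x / (Real.exp x - 1))) :=
  weight_mono h1 (level_pos x hx).le (level_le_one x hx)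

theorem level_right (x s : ℝ) (hx : 0 < x) (h2 : x / (Real.exp x - 1) + x ≤ s) :
    s * Real.exp (-s) ≤ x / (Real.exp x - 1) * Real.exp (-(x / (Real.exp x - 1))) := by
  rw [← level_eq x hx]
  exact weight_anti (one_le_level_add x hx) h2

theorem weight_le (s : ℝ) : s * Real.exp (-s) ≤ Real.exp (-1) := by
  have h1 : s ≤ Real.exp (s - 1) := by
    have := Real.add_one_le_exp (s - 1)
    linarith
  have h2 : Real.exp (-1) = Real.exp (s - 1) * Real.exp (-s) := by
    rw [← Real.exp_add]; congr 1; ring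
  rw [h2]
  exact mul_le_mul_of_nonneg_right h1 (Real.exp_pos _).le

theorem weight_integrable : IntegrableOn (fun s : ℝ => s * Real.exp (-s)) (Ioi 0) := by
  have h := Real.GammaIntegral_convergent (s := 2) (by norm_num)
  refine h.congr_fun (fun s hs => ?_) measurableSet_Ioi
  have : (2 : ℝ) - 1 = 1 := by norm_num
  simp only [this, Real.rpow_one]
  ring

/-- Antiderivative of the weight. -/
theorem weight_hasDerivAt (s : ℝ) :
    HasDerivAt (fun s : ℝ => -((1 + s) * Real.exp (-s))) (s * Real.exp (-s)) s := by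
  have h1 : HasDerivAt (fun s : ℝ => 1 + s) 1 s := by
    simpa using (hasDerivAt_id s).const_add 1
  have h2 : HasDerivAt (fun s : ℝ => Real.exp (-s)) (Real.exp (-s) * (-1)) s :=
    (Real.hasDerivAt_exp (-s)).comp s (hasDerivAt_neg s)
  have h3 := (h1.mul h2).neg
  exact h3.congr_deriv (by ring)

theorem weight_integral_Ioi (a : ℝ) (ha : 0 ≤ a) :
    ∫ s in Ioi a, s * Real.exp (-s) = (1 + a) * Real.exp (-a) := by
  have hint : IntegrableOn (fun s : ℝ => s * Real.exp (-s)) (Ioi a) :=
    weight_integrable.mono_set (Ioi_subset_Ioi ha)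
  have hlim : Tendsto (fun s : ℝ => -((1 + s) * Real.exp (-s))) atTop (𝓝 0) := by
    have h0 := Real.tendsto_pow_mul_exp_neg_atTop_nhds_zero 0
    have h1 := Real.tendsto_pow_mul_exp_neg_atTop_nhds_zero 1
    have h2 := (h0.add h1).neg
    simp only [pow_zero, pow_one, one_mul, add_zero, neg_zero] at h2
    refine h2.congr (fun s => ?_)
    ring
  have := integral_Ioi_of_hasDerivAt_of_tendsto' (a := a)
    (fun s _ => weight_hasDerivAt s) hint hlim
  rw [this]
  ring

theorem weight_tails (x : ℝ) (hx : 0 < x) :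
    (∫ s in Ioo 0 (x / (Real.exp x - 1)), s * Real.exp (-s)) +
      (∫ s in Ioi (x / (Real.exp x - 1) + x), s * Real.exp (-s)) ≤ 4 / x := by
  have hpos := exp_sub_one_pos hx
  have hs1 := level_pos x hx
  have hquad := Real.quadratic_le_exp_of_nonneg hx.le
  -- first piece: `∫_0^{s₁} v ≤ s₁ ≤ 2 / x`
  have hA : (∫ s in Ioo 0 (x / (Real.exp x - 1)), s * Real.exp (-s)) ≤ 2 / x := by
    have hb : ∀ s ∈ Ioo (0 : ℝ) (x / (Real.exp x - 1)), ‖s * Real.exp (-s)‖ ≤ 1 := by
      intro s hs
      rw [Real.norm_of_nonneg (mul_nonneg hs.1.le (Real.exp_pos _).le)]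
      have h1 := weight_le s
      have h2 : Real.exp (-1) ≤ 1 := by
        rw [← Real.exp_zero]; exact Real.exp_le_exp.mpr (by norm_num)
      linarith
    have h1 := norm_setIntegral_le_of_norm_le_const (μ := volume)
      (s := Ioo (0 : ℝ) (x / (Real.exp x - 1))) (by simp) hb
    have h2 : (volume : Measure ℝ).real (Ioo (0 : ℝ) (x / (Real.exp x - 1))) =
        x / (Real.exp x - 1) := by
      simp [Measure.real, hs1.le]
    rw [h2, one_mul] at h1
    have h3 : x / (Real.exp x - 1) ≤ 2 / x := by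
      rw [div_le_div_iff₀ hpos hx]
      nlinarith
    exact ((le_abs_self _).trans h1).trans h3
  -- second piece: `∫_{s₂}^∞ v = (1 + s₂) e^{-s₂} ≤ 2 / s₂ ≤ 2 / x`
  have hB : (∫ s in Ioi (x / (Real.exp x - 1) + x), s * Real.exp (-s)) ≤ 2 / x := by
    set b := x / (Real.exp x - 1) + x with hb
    have hbx : x ≤ b := by rw [hb]; linarith
    have hb0 : 0 < b := lt_of_lt_of_le hx hbx
    rw [weight_integral_Ioi b hb0.le]
    have hq := Real.quadratic_le_exp_of_nonneg hb0.le
    have h1 : Real.exp (-b) * Real.exp b = 1 := by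
      rw [← Real.exp_add]; simp
    have hexp : Real.exp (-b) = 1 / Real.exp b := by
      rw [eq_div_iff (Real.exp_pos b).ne']; exact h1
    rw [hexp, mul_one_div, div_le_div_iff₀ (Real.exp_pos b) hx]
    have h2 : (1 + b) * b ≤ 2 * Real.exp b := by nlinarith
    calc (1 + b) * x ≤ (1 + b) * b := mul_le_mul_of_nonneg_left hbx (by linarith)
      _ ≤ 2 * Real.exp b := h2
  have : (4 : ℝ) / x = 2 / x + 2 / x := by ring
  rw [this]
  exact add_le_add hA hB

end Crest.Agent.Helper8
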