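import Mathlib
import Crest.Prelude.Def_AsymptoticConvexity
import Crest.Prelude.Def_TreePotentials
import Crest.Agent.Helper7.TreeDefs

/-!
Row 125 (S0166-S0169), module [TREE-BASIC]: the basic facts about the tree-potential spaces of
`Crest.Agent.Helper7.Tree` that do not depend on the model:

* `potClass_extraCondition m : PotClass (ExtraCondition m)` for the four Prelude models;
* `extraCondition_single`: every non-root vertex is live in each of the four models;
* `potClass_extraH n : PotClass (ExtraH n)` and `extraH_single` for the height-`n` blocks;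
* `pathPotential_single`, `isT_single`, `one_le_norm_e`;
* `space_separable`, `space_infinite_dim`.
-/

namespace Crest.Agent.Helper8

open Crest.AnalysisR Crest.AnalysisR.TreePotential Crest.Agent.Helper7.Tree

/-! ### Sums of squares under mixing -/

/-- Mixing inequality for finite sums of squares: if `h` is dominated by `α |f|` on `D` and by
`κ |g|` off `D`, with `α² + κ² ≤ 1`, and all sub-sums of squares of `f` and of `g` over the
finite set `A` are at most `1`, then the sum of squares of `h` over `A` is at most `1`. -/
theorem sum_sq_mix {ι : Type*} (A : Finset ι) (f g h : ι → ℝ) (D : Set ι) (α κ : ℝ)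
    (hακ : α ^ 2 + κ ^ 2 ≤ 1)
    (hf : ∀ B : Finset ι, B ⊆ A → ∑ u ∈ B, f u ^ 2 ≤ 1)
    (hg : ∀ B : Finset ι, B ⊆ A → ∑ u ∈ B, g u ^ 2 ≤ 1)
    (hD : ∀ s ∈ D, |h s| ≤ α * |f s|) (hnD : ∀ s, s ∉ D → |h s| ≤ κ * |g s|) :
    ∑ u ∈ A, h u ^ 2 ≤ 1 := by
  classical
  rw [← Finset.sum_filter_add_sum_filter_not A (· ∈ D)]
  have h1 : ∑ u ∈ A.filter (· ∈ D), h u ^ 2 ≤ α ^ 2 * ∑ u ∈ A.filter (· ∈ D), f u ^ 2 := by
    rw [Finset.mul_sum]
    refine Finset.sum_le_sum fun u hu => ?_
    have h0 := hD u (Finset.mem_filter.1 hu).2
    calc h u ^ 2 = |h u| ^ 2 := (sq_abs _).symm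
      _ ≤ (α * |f u|) ^ 2 := by
        exact pow_le_pow_left₀ (abs_nonneg _) h0 2
      _ = α ^ 2 * f u ^ 2 := by rw [mul_pow, sq_abs]
  have h2 : ∑ u ∈ A.filter (fun u => ¬ u ∈ D), h u ^ 2
      ≤ κ ^ 2 * ∑ u ∈ A.filter (fun u => ¬ u ∈ D), g u ^ 2 := by
    rw [Finset.mul_sum]
    refine Finset.sum_le_sum fun u hu => ?_
    have h0 := hnD u (Finset.mem_filter.1 hu).2
    calc h u ^ 2 = |h u| ^ 2 := (sq_abs _).symm
      _ ≤ (κ * |g u|) ^ 2 := by
        exact pow_le_pow_left₀ (abs_nonneg _) h0 2
      _ = κ ^ 2 * g u ^ 2 := by rw [mul_pow, sq_abs]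
  have h3 := hf (A.filter (· ∈ D)) (Finset.filter_subset _ _)
  have h4 := hg (A.filter (fun u => ¬ u ∈ D)) (Finset.filter_subset _ _)
  have h5 : 0 ≤ ∑ u ∈ A.filter (· ∈ D), f u ^ 2 := Finset.sum_nonneg fun _ _ => sq_nonneg _
  have h6 : 0 ≤ ∑ u ∈ A.filter (fun u => ¬ u ∈ D), g u ^ 2 :=
    Finset.sum_nonneg fun _ _ => sq_nonneg _
  nlinarith [sq_nonneg α, sq_nonneg κ]

/-- A sum of squares of `Pi.single s 1` over any finite set is at most `1`. -/
theorem sum_sq_single_le {ι : Type*} [DecidableEq ι] (s : ι) (A : Finset ι) :
    ∑ u ∈ A, (Pi.single s (1 : ℝ) : ι → ℝ) u ^ 2 ≤ 1 := by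
  have h : ∀ u, (Pi.single s (1 : ℝ) : ι → ℝ) u ^ 2 = if u = s then 1 else 0 := by
    intro u
    by_cases hu : u = s
    · subst hu; simp
    · simp [hu]
  simp only [h]
  rw [Finset.sum_ite_eq' A s (fun _ => (1 : ℝ))]
  split_ifs <;> norm_num

/-- A sum of squares of `Pi.single s 1` over the children of a vertex is at most `1`. -/
theorem sum_sq_single_children_le (s r : List ℕ) (A : Finset ℕ) :
    ∑ n ∈ A, (Pi.single s (1 : ℝ) : List ℕ → ℝ) (n :: r) ^ 2 ≤ 1 := by
  classical
  have hinj : Set.InjOn (fun n : ℕ => n :: r) (A : Set ℕ) := by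
    intro a _ b _ hab
    simpa using hab
  have := sum_sq_single_le s (A.image fun n : ℕ => n :: r)
  rwa [Finset.sum_image hinj] at this

/-- The children of a vertex form a tree antichain. -/
theorem isTreeAntichain_children (r : List ℕ) (A : Finset ℕ) [DecidableEq (List ℕ)] :
    IsTreeAntichain (A.image fun n : ℕ => n :: r) := by
  intro u hu v hv huv hsuf
  obtain ⟨a, -, rfl⟩ := Finset.mem_image.1 hu
  obtain ⟨b, -, rfl⟩ := Finset.mem_image.1 hv
  exact huv (hsuf.eq_of_length (by simp))

/-- A subset of a tree antichain is a tree antichain. -/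
theorem isTreeAntichain_subset {A B : Finset (List ℕ)} (hA : IsTreeAntichain A) (hB : B ⊆ A) :
    IsTreeAntichain B :=
  fun u hu v hv huv => hA u (hB hu) v (hB hv) huv

/-! ### Potentials of a single coordinate -/

/-- The potential of `Pi.single s c` at `u` is `c` if `s` is on the root path of `u` and `0`
otherwise. -/
theorem pathPotential_single (s : List ℕ) (c : ℝ) (u : List ℕ) :
    pathPotential (Pi.single s c) u = if s <:+ u then c else 0 := by
  induction u with
  | nil =>
    simp only [pathPotential, List.suffix_nil]
    by_cases hs : s = []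
    · subst hs; simp
    · rw [if_neg hs, Pi.single_eq_of_ne (Ne.symm hs)]
  | cons a v ih =>
    simp only [pathPotential, ih, List.suffix_cons_iff]
    by_cases h1 : s = a :: v
    · have h2 : ¬ s <:+ v := by
        intro h
        have := h.length_le
        rw [h1] at this
        simp at this
      rw [if_neg h2, if_pos (Or.inl h1), h1, Pi.single_eq_same, zero_add]
    · rw [Pi.single_eq_of_ne (Ne.symm h1), add_zero]
      by_cases h2 : s <:+ v
      · rw [if_pos h2, if_pos (Or.inr h2)]
      · rw [if_neg h2, if_neg (by tauto)]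

/-- The potentials of `Pi.single s 1` are bounded by `1`. -/
theorem abs_pathPotential_single_le (s u : List ℕ) :
    |pathPotential (Pi.single s (1 : ℝ)) u| ≤ 1 := by
  rw [pathPotential_single]
  split_ifs <;> simp

/-- A live coordinate is a test. -/
theorem isT_single {Extra : (List ℕ → ℝ) → Prop} {s : List ℕ}
    (hs : Extra (Pi.single s 1)) : IsT Extra (Pi.single s 1) :=
  ⟨abs_pathPotential_single_le s, hs⟩

/-- The test `Pi.single s 1` of a live vertex `s`. -/
def singleTest {Extra : (List ℕ → ℝ) → Prop} {s : List ℕ}
    (hs : Extra (Pi.single s 1)) : Test Extra :=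
  ⟨Pi.single s 1, isT_single hs⟩

theorem singleTest_val {Extra : (List ℕ → ℝ) → Prop} {s : List ℕ}
    (hs : Extra (Pi.single s 1)) : (singleTest hs).1 = Pi.single s 1 := rfl

theorem evalT_singleTest_e {Extra : (List ℕ → ℝ) → Prop} {s : List ℕ}
    (hs : Extra (Pi.single s 1)) (u : List ℕ) :
    evalT Extra (singleTest hs) (e Extra u) = (Pi.single s (1 : ℝ) : List ℕ → ℝ) u := rfl

theorem evalT_singleTest_e_same {Extra : (List ℕ → ℝ) → Prop} {s : List ℕ}
    (hs : Extra (Pi.single s 1)) : evalT Extra (singleTest hs) (e Extra s) = 1 := by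
  rw [evalT_singleTest_e, Pi.single_eq_same]

theorem evalT_singleTest_e_of_ne {Extra : (List ℕ → ℝ) → Prop} {s u : List ℕ}
    (hs : Extra (Pi.single s 1)) (hu : u ≠ s) :
    evalT Extra (singleTest hs) (e Extra u) = 0 := by
  rw [evalT_singleTest_e, Pi.single_eq_of_ne hu]

/-- The coordinate vector of a live vertex has norm at least `1`. -/
theorem one_le_norm_e {Extra : (List ℕ → ℝ) → Prop} {s : List ℕ}
    (hs : Extra (Pi.single s 1)) : 1 ≤ ‖e Extra s‖ := by
  have h := abs_evalT_le Extra (singleTest hs) (e Extra s)
  have h2 : ((e Extra s : space Extra) : lp (fun _ : Test Extra => ℝ) ⊤) (singleTest hs) = 1 :=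
    evalT_singleTest_e_same hs
  rw [h2, abs_one] at h
  exact h

/-! ### The four Prelude models -/

/-- The extra condition of each of the four Prelude models is a `PotClass`. -/
theorem potClass_extraCondition (m : PotentialModel) : PotClass (ExtraCondition m) := by
  classical
  cases m with
  | rootlessSibling =>
    refine ⟨⟨by simp, fun r A => by simp⟩, ?_, fun f hf => hf.2, ?_⟩
    · intro f g h D α κ hα hκ hακ hf hg hD hnD
      refine ⟨?_, fun r A => ?_⟩
      · by_cases h0 : ([] : List ℕ) ∈ D
        · have := hD [] h0
          rw [hf.1, abs_zero, mul_zero] at this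
          exact abs_nonpos_iff.1 this
        · have := hnD [] h0
          rw [hg.1, abs_zero, mul_zero] at this
          exact abs_nonpos_iff.1 this
      · exact sum_sq_mix A (fun n => f (n :: r)) (fun n => g (n :: r)) (fun n => h (n :: r))
          {n | n :: r ∈ D} α κ hακ (fun B _ => hf.2 r B) (fun B _ => hg.2 r B)
          (fun n hn => hD _ hn) (fun n hn => hnD _ hn)
    · intro s
      cases s with
      | nil => exact Or.inr fun f hf => hf.1
      | cons a v =>
        exact Or.inl ⟨Pi.single_eq_of_ne (by simp) _, fun r A => sum_sq_single_children_le _ r A⟩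
  | rootedSibling =>
    refine ⟨fun r A => by simp, ?_, fun f hf => hf, ?_⟩
    · intro f g h D α κ hα hκ hακ hf hg hD hnD r A
      exact sum_sq_mix A (fun n => f (n :: r)) (fun n => g (n :: r)) (fun n => h (n :: r))
          {n | n :: r ∈ D} α κ hακ (fun B _ => hf r B) (fun B _ => hg r B)
          (fun n hn => hD _ hn) (fun n hn => hnD _ hn)
    · intro s
      exact Or.inl fun r A => sum_sq_single_children_le _ r A
  | antichain =>
    refine ⟨⟨by simp, fun A _ => by simp⟩, ?_, ?_, ?_⟩
    · intro f g h D α κ hα hκ hακ hf hg hD hnD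
      refine ⟨?_, fun A hA => ?_⟩
      · refine (hf.1.union hg.1).subset fun s hs => ?_
        by_contra hcon
        simp only [Set.mem_union, Function.mem_support, not_or, not_not] at hcon
        apply hs
        by_cases h0 : s ∈ D
        · have := hD s h0
          rw [hcon.1, abs_zero, mul_zero] at this
          exact abs_nonpos_iff.1 this
        · have := hnD s h0
          rw [hcon.2, abs_zero, mul_zero] at this
          exact abs_nonpos_iff.1 this
      · exact sum_sq_mix A f g h D α κ hακ (fun B hB => hf.2 B (isTreeAntichain_subset hA hB))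
          (fun B hB => hg.2 B (isTreeAntichain_subset hA hB)) hD hnD
    · intro f hf r A
      have hinj : Set.InjOn (fun n : ℕ => n :: r) (A : Set ℕ) := by
        intro a _ b _ hab
        simpa using hab
      have := hf.2 _ (isTreeAntichain_children r A)
      rwa [Finset.sum_image hinj] at this
    · intro s
      refine Or.inl ⟨?_, fun A _ => sum_sq_single_le s A⟩
      refine (Set.finite_singleton s).subset fun u hu => ?_
      by_contra hcon
      exact hu (Pi.single_eq_of_ne hcon _)
  | global =>
    refine ⟨fun A => by simp, ?_, ?_, ?_⟩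
    · intro f g h D α κ hα hκ hακ hf hg hD hnD A
      exact sum_sq_mix A f g h D α κ hακ (fun B _ => hf B) (fun B _ => hg B) hD hnD
    · intro f hf r A
      have hinj : Set.InjOn (fun n : ℕ => n :: r) (A : Set ℕ) := by
        intro a _ b _ hab
        simpa using hab
      have := hf (A.image fun n : ℕ => n :: r)
      rwa [Finset.sum_image hinj] at this
    · intro s
      exact Or.inl fun A => sum_sq_single_le s A

/-- Every non-root vertex is live in each of the four Prelude models. -/
theorem extraCondition_single (m : PotentialModel) (s : List ℕ) (hs : s ≠ []) :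
    ExtraCondition m (Pi.single s 1) := by
  classical
  cases m with
  | rootlessSibling =>
    exact ⟨Pi.single_eq_of_ne (Ne.symm hs) _, fun r A => sum_sq_single_children_le _ r A⟩
  | rootedSibling => exact fun r A => sum_sq_single_children_le _ r A
  | antichain =>
    refine ⟨?_, fun A _ => sum_sq_single_le s A⟩
    refine (Set.finite_singleton s).subset fun u hu => ?_
    by_contra hcon
    exact hu (Pi.single_eq_of_ne hcon _)
  | global => exact fun A => sum_sq_single_le s A

/-- In the three rooted models the root is live as well. -/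
theorem extraCondition_single_root (m : PotentialModel) (hm : m ≠ .rootlessSibling)
    (s : List ℕ) : ExtraCondition m (Pi.single s 1) := by
  classical
  cases m with
  | rootlessSibling => exact absurd rfl hm
  | rootedSibling => exact fun r A => sum_sq_single_children_le _ r A
  | antichain =>
    refine ⟨?_, fun A _ => sum_sq_single_le s A⟩
    refine (Set.finite_singleton s).subset fun u hu => ?_
    by_contra hcon
    exact hu (Pi.single_eq_of_ne hcon _)
  | global => exact fun A => sum_sq_single_le s A

/-! ### The height-`n` blocks -/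

/-- The extra condition of the height-`n` block is a `PotClass`. -/
theorem potClass_extraH (n : ℕ) : PotClass (ExtraH n) := by
  classical
  refine ⟨⟨fun A => by simp, fun s _ => rfl⟩, ?_, ?_, ?_⟩
  · intro f g h D α κ hα hκ hακ hf hg hD hnD
    refine ⟨fun A => ?_, fun s hs => ?_⟩
    · exact sum_sq_mix A f g h D α κ hακ (fun B _ => hf.1 B) (fun B _ => hg.1 B) hD hnD
    · by_cases h0 : s ∈ D
      · have := hD s h0
        rw [hf.2 s hs, abs_zero, mul_zero] at this
        exact abs_nonpos_iff.1 this
      · have := hnD s h0
        rw [hg.2 s hs, abs_zero, mul_zero] at this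
        exact abs_nonpos_iff.1 this
  · intro f hf r A
    have hinj : Set.InjOn (fun n : ℕ => n :: r) (A : Set ℕ) := by
      intro a _ b _ hab
      simpa using hab
    have := hf.1 (A.image fun n : ℕ => n :: r)
    rwa [Finset.sum_image hinj] at this
  · intro s
    by_cases hs : s.length ≤ n
    · refine Or.inl ⟨fun A => sum_sq_single_le s A, fun u hu => Pi.single_eq_of_ne ?_ _⟩
      rintro rfl
      omega
    · exact Or.inr fun f hf => hf.2 s (by omega)

/-- A vertex of length at most `n` is live in the height-`n` block. -/
theorem extraH_single (n : ℕ) (s : List ℕ) (hs : s.length ≤ n) :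
    ExtraH n (Pi.single s 1) := by
  classical
  refine ⟨fun A => sum_sq_single_le s A, fun u hu => Pi.single_eq_of_ne ?_ _⟩
  rintro rfl
  omega

/-! ### Separability and infinite dimension -/

/-- The generated space is separable. -/
theorem space_separable (Extra : (List ℕ → ℝ) → Prop) :
    TopologicalSpace.SeparableSpace (space Extra) := by
  have h1 : TopologicalSpace.IsSeparable (Set.range (coordVec Extra)) :=
    (Set.countable_range _).isSeparable
  have h2 : TopologicalSpace.IsSeparable
      (↑(Submodule.span ℝ (Set.range (coordVec Extra))) :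
        Set (lp (fun _ : Test Extra => ℝ) ⊤)) :=
    TopologicalSpace.IsSeparable.span (R := ℝ) h1
  have h3 : TopologicalSpace.IsSeparable
      (↑(space Extra) : Set (lp (fun _ : Test Extra => ℝ) ⊤)) := by
    have : (↑(space Extra) : Set (lp (fun _ : Test Extra => ℝ) ⊤))
        = closure (↑(Submodule.span ℝ (Set.range (coordVec Extra))) :
            Set (lp (fun _ : Test Extra => ℝ) ⊤)) :=
      Submodule.topologicalClosure_coe _
    rw [this]
    exact h2.closure
  exact h3.separableSpace

/-- The coordinate vectors of the live vertices are linearly independent. -/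
theorem linearIndependent_e {Extra : (List ℕ → ℝ) → Prop} {ι : Type*} (v : ι → List ℕ)
    (hv : Function.Injective v) (hlive : ∀ i, Extra (Pi.single (v i) 1)) :
    LinearIndependent ℝ (fun i => e Extra (v i)) := by
  classical
  rw [linearIndependent_iff']
  intro s g hg i hi
  have h := congrArg (evalT Extra (singleTest (hlive i))) hg
  rw [map_sum, map_zero] at h
  simp only [map_smul, smul_eq_mul] at h
  rw [Finset.sum_eq_single i] at h
  · rwa [evalT_singleTest_e_same, mul_one] at h
  · intro j _ hji
    rw [evalT_singleTest_e_of_ne _ (fun hh => hji (hv hh)), mul_zero]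
  · intro hi'
    exact absurd hi hi'

/-- If all vertices `[k]` of the first level are live, the generated space is
infinite-dimensional. -/
theorem space_infinite_dim {Extra : (List ℕ → ℝ) → Prop}
    (hlive : ∀ k : ℕ, Extra (Pi.single [k] 1)) : ¬ FiniteDimensional ℝ (space Extra) := by
  intro hfin
  have hli : LinearIndependent ℝ (fun k : ℕ => e Extra [k]) :=
    linearIndependent_e (fun k : ℕ => [k]) (fun a b hab => by simpa using hab) hlive
  have : Finite ℕ := hli.finite
  exact not_finite ℕ

/-- First conjunct of S0168: each model space is separable and infinite-dimensional. -/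
theorem modelBanach_isSeparableInfiniteDim (m : PotentialModel) :
    (modelBanach m).IsSeparableInfiniteDim :=
  ⟨space_separable (ExtraCondition m),
    space_infinite_dim fun k => extraCondition_single m [k] (by simp)⟩

/-- The blocks of the S0166 space are separable. -/
theorem block_separable (n : ℕ) : TopologicalSpace.SeparableSpace (Block n) :=
  space_separable (ExtraH n)

/-- The blocks of positive height are infinite-dimensional. -/
theorem block_infinite_dim (n : ℕ) : ¬ FiniteDimensional ℝ (Block (n + 1)) :=
  space_infinite_dim fun k => extraH_single (n + 1) [k] (by simp)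

end Crest.Agent.Helper8
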